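import Vale.Agent.P091.CH.Defs

/-!
# Geometry of the grid (helper43): distance, balls, dyadic intervals
-/

open Finset

namespace Vale.Agent.P091.CH.H43

open Vale.Agent.P091.CH

variable {K : ℕ}

theorem nrm_nonneg (x : X K) : 0 ≤ nrm x := norm_nonneg _

theorem nrm_neg (x : X K) : nrm (-x) = nrm x := by
  unfold nrm
  rw [map_neg, norm_neg]

theorem nrm_add_le (x y : X K) : nrm (x + y) ≤ nrm x + nrm y := by
  unfold nrm
  rw [map_add]
  exact norm_add_le _ _

theorem nrm_sub_comm (x y : X K) : nrm (x - y) = nrm (y - x) := by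
  rw [← nrm_neg, neg_sub]

theorem nrm_sub_le (x y z : X K) : nrm (x - z) ≤ nrm (x - y) + nrm (y - z) := by
  have := nrm_add_le (x - y) (y - z)
  rwa [sub_add_sub_cancel] at this

theorem nrm_zero : nrm (0 : X K) = 0 := by
  unfold nrm
  rw [map_zero, norm_zero]

theorem nrm_int (n : ℤ) : nrm ((n : X K)) = |(n : ℝ) / 2 ^ K - round ((n : ℝ) / 2 ^ K)| := by
  unfold nrm
  rw [ZMod.toAddCircle_intCast, UnitAddCircle.norm_eq]
  push_cast
  rfl

theorem nrm_int_le (n : ℤ) : nrm ((n : X K)) ≤ |(n : ℝ)| / 2 ^ K := by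
  rw [nrm_int]
  refine (round_le ((n : ℝ) / 2 ^ K) 0).trans ?_
  rw [Int.cast_zero, sub_zero, abs_div, abs_of_pos (by positivity : (0:ℝ) < 2 ^ K)]

/-- every point has a representative `n` with `|n| = 2^K nrm x` -/
theorem exists_rep (x : X K) : ∃ n : ℤ, (n : X K) = x ∧ |(n : ℝ)| = 2 ^ K * nrm x := by
  have hx : ((x.val : ℤ) : X K) = x := by
    rw [Int.cast_natCast]
    exact ZMod.natCast_zmod_val x
  refine ⟨(x.val : ℤ) - round (((x.val : ℤ) : ℝ) / 2 ^ K) * 2 ^ K, ?_, ?_⟩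
  · push_cast
    rw [ZMod.natCast_zmod_val]
    have : ((2 : X K)) ^ K = 0 := by
      have := ZMod.natCast_self (2 ^ K)
      push_cast at this
      exact this
    rw [this, mul_zero, sub_zero]
  · conv_rhs => rw [← hx]
    rw [nrm_int]
    have h2 : (0:ℝ) < 2 ^ K := by positivity
    rw [← abs_of_pos h2, ← abs_mul, abs_of_pos h2]
    congr 1
    push_cast
    field_simp

theorem card_ball (c : X K) (r : ℝ) (hr : 0 ≤ r) :
    ((univ.filter (fun x : X K => nrm (x - c) ≤ r)).card : ℝ) ≤ 2 * (r * 2 ^ K) + 1 := by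
  classical
  have h2 : (0:ℝ) < 2 ^ K := by positivity
  set m : ℕ := ⌊r * 2 ^ K⌋₊ with hm
  have hm1 : (m : ℝ) ≤ r * 2 ^ K := Nat.floor_le (by positivity)
  have hsub : univ.filter (fun x : X K => nrm (x - c) ≤ r) ⊆
      (Finset.Icc (-(m:ℤ)) m).image (fun n : ℤ => (n : X K) + c) := by
    intro x hx
    rw [Finset.mem_filter] at hx
    obtain ⟨n, hn, hn2⟩ := exists_rep (x - c)
    rw [Finset.mem_image]
    refine ⟨n, ?_, by rw [hn]; ring⟩
    have h3 : |(n:ℝ)| ≤ r * 2 ^ K := by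
      rw [hn2, mul_comm]
      exact mul_le_mul_of_nonneg_right hx.2 h2.le
    have h4 : n.natAbs ≤ m := by
      apply Nat.le_floor
      have : ((n.natAbs : ℕ) : ℝ) = |(n:ℝ)| := by
        rw [Nat.cast_natAbs]
        push_cast
        rfl
      rw [this]
      exact h3
    rw [Finset.mem_Icc]
    omega
  have hc := (Finset.card_le_card hsub).trans Finset.card_image_le
  rw [Int.card_Icc] at hc
  have h5 : ((m:ℤ) + 1 - -(m:ℤ)).toNat = 2 * m + 1 := by omega
  rw [h5] at hc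
  have h6 : ((univ.filter (fun x : X K => nrm (x - c) ≤ r)).card : ℝ) ≤ 2 * m + 1 := by
    exact_mod_cast hc
  linarith

/-- measure of balls of radius at least the grid size -/
theorem mu_ball (c : X K) (k : ℕ) (hk : k ≤ K) (A : ℝ) (hA : 0 ≤ A) :
    mu (univ.filter (fun x : X K => nrm (x - c) ≤ A * ((2:ℝ) ^ k)⁻¹)) ≤
      (2 * A + 1) * ((2:ℝ) ^ k)⁻¹ := by
  have h2 : (0:ℝ) < 2 ^ K := by positivity
  have h2k : (0:ℝ) < 2 ^ k := by positivity
  have h := card_ball c (A * ((2:ℝ) ^ k)⁻¹) (by positivity)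
  unfold mu
  rw [div_le_iff₀ h2]
  refine h.trans ?_
  have h3 : (1:ℝ) ≤ ((2:ℝ) ^ k)⁻¹ * 2 ^ K := by
    rw [inv_mul_eq_div, one_le_div h2k]
    exact pow_le_pow_right₀ one_le_two hk
  nlinarith [h3]

/-- two points in the same dyadic interval -/
theorem nrm_dy {k j : ℕ} (hk : k ≤ K) {x y : X K} (hx : x.val / 2 ^ (K - k) = j)
    (hy : y.val / 2 ^ (K - k) = j) : nrm (x - y) ≤ ((2:ℝ) ^ k)⁻¹ := by
  have hx' : ((x.val : ℤ) : X K) = x := by
    rw [Int.cast_natCast]
    exact ZMod.natCast_zmod_val x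
  have hy' : ((y.val : ℤ) : X K) = y := by
    rw [Int.cast_natCast]
    exact ZMod.natCast_zmod_val y
  have e : x - y = (((x.val : ℤ) - (y.val : ℤ) : ℤ) : X K) := by
    push_cast
    rw [ZMod.natCast_zmod_val, ZMod.natCast_zmod_val]
  rw [e]
  refine (nrm_int_le _).trans ?_
  have hp : (0:ℝ) < 2 ^ K := by positivity
  have hpk : (0:ℝ) < 2 ^ k := by positivity
  rw [div_le_iff₀ hp, inv_mul_eq_div, le_div_iff₀ hpk]
  have hpos : 0 < 2 ^ (K - k) := by positivity
  have h1 := Nat.div_add_mod x.val (2 ^ (K - k))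
  have h2 := Nat.div_add_mod y.val (2 ^ (K - k))
  have h3 := Nat.mod_lt x.val hpos
  have h4 := Nat.mod_lt y.val hpos
  rw [hx] at h1
  rw [hy] at h2
  have h5 : |((x.val : ℤ) - (y.val : ℤ) : ℤ)| ≤ (2 ^ (K - k) : ℕ) := by
    rw [abs_le]
    constructor <;> omega
  have h6 : |(((x.val : ℤ) - (y.val : ℤ) : ℤ) : ℝ)| ≤ 2 ^ (K - k) := by
    rw [← Int.cast_abs]
    exact_mod_cast h5
  calc |(((x.val : ℤ) - (y.val : ℤ) : ℤ) : ℝ)| * 2 ^ k ≤ 2 ^ (K - k) * 2 ^ k :=
        mul_le_mul_of_nonneg_right h6 hpk.le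
    _ = 2 ^ K := by rw [← pow_add, Nat.sub_add_cancel hk]

theorem pow_split {k : ℕ} (hk : k ≤ K) : 2 ^ (K - k) * 2 ^ k = 2 ^ K := by
  rw [← pow_add, Nat.sub_add_cancel hk]

/-- value of the sampling points -/
theorem pt_val {k j r : ℕ} (hk : k + 3 ≤ K) (hj : j < 2 ^ k) (hr : r < 8) :
    (pt K k j r).val = j * 2 ^ (K - k) + r * 2 ^ (K - k - 3) := by
  unfold pt
  rw [ZMod.val_natCast]
  apply Nat.mod_eq_of_lt
  have h1 : 2 ^ (K - k) = 8 * 2 ^ (K - k - 3) := by
    have : K - k = (K - k - 3) + 3 := by omega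
    conv_lhs => rw [this, pow_add]
    ring
  have h2 := pow_split (K := K) (k := k) (by omega)
  have h3 : 0 < 2 ^ (K - k - 3) := by positivity
  have h4 : j + 1 ≤ 2 ^ k := hj
  calc j * 2 ^ (K - k) + r * 2 ^ (K - k - 3)
      < j * 2 ^ (K - k) + 8 * 2 ^ (K - k - 3) := by
        have := Nat.mul_lt_mul_of_pos_right hr h3
        omega
    _ = (j + 1) * 2 ^ (K - k) := by rw [← h1]; ring
    _ ≤ 2 ^ k * 2 ^ (K - k) := Nat.mul_le_mul_right _ h4
    _ = 2 ^ K := by rw [mul_comm]; exact h2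

theorem pt_zero_val {k j : ℕ} (hk : k ≤ K) (hj : j < 2 ^ k) :
    (pt K k j 0).val = j * 2 ^ (K - k) := by
  unfold pt
  rw [zero_mul, add_zero, ZMod.val_natCast]
  apply Nat.mod_eq_of_lt
  have h2 := pow_split (K := K) (k := k) hk
  have h3 : 0 < 2 ^ (K - k) := by positivity
  have h4 : j * 2 ^ (K - k) < 2 ^ k * 2 ^ (K - k) := Nat.mul_lt_mul_of_pos_right hj h3
  rw [mul_comm (2 ^ k), h2] at h4
  exact h4

theorem pt_zero_div {k j : ℕ} (hk : k ≤ K) (hj : j < 2 ^ k) :
    (pt K k j 0).val / 2 ^ (K - k) = j := by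
  rw [pt_zero_val hk hj]
  exact Nat.mul_div_cancel _ (by positivity)

theorem pt_div {k j r : ℕ} (hk : k + 3 ≤ K) (hj : j < 2 ^ k) (hr : r < 8) :
    (pt K k j r).val / 2 ^ (K - k) = j := by
  rw [pt_val hk hj hr]
  have h1 : 2 ^ (K - k) = 8 * 2 ^ (K - k - 3) := by
    have : K - k = (K - k - 3) + 3 := by omega
    conv_lhs => rw [this, pow_add]
    ring
  have h3 : 0 < 2 ^ (K - k - 3) := by positivity
  have h4 : r * 2 ^ (K - k - 3) < 2 ^ (K - k) := by
    rw [h1]
    exact Nat.mul_lt_mul_of_pos_right hr h3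
  rw [mul_comm j, Nat.mul_add_div (by positivity), Nat.div_eq_of_lt h4, add_zero]

/-- membership in a dyadic interval -/
theorem mem_dy {k j : ℕ} {x : X K} : x ∈ dy K k j ↔ x.val / 2 ^ (K - k) = j := by
  unfold dy
  simp

/-- cardinality of a dyadic interval -/
theorem card_dy {k j : ℕ} (hk : k ≤ K) (hj : j < 2 ^ k) : (dy K k j).card = 2 ^ (K - k) := by
  have hpos : 0 < 2 ^ (K - k) := by positivity
  have h2 := pow_split (K := K) (k := k) hk
  have himg : (dy K k j).image ZMod.val = Finset.Ico (j * 2 ^ (K - k)) ((j + 1) * 2 ^ (K - k)) := by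
    ext n
    rw [Finset.mem_image, Finset.mem_Ico]
    constructor
    · rintro ⟨x, hx, rfl⟩
      rw [mem_dy] at hx
      have h1 := Nat.div_add_mod x.val (2 ^ (K - k))
      have h3 := Nat.mod_lt x.val hpos
      rw [hx] at h1
      constructor
      · rw [mul_comm]; omega
      · rw [add_mul, one_mul, mul_comm j]; omega
    · rintro ⟨h1, h3⟩
      have h5 : (j + 1) * 2 ^ (K - k) ≤ 2 ^ K := by
        calc (j + 1) * 2 ^ (K - k) ≤ 2 ^ k * 2 ^ (K - k) := Nat.mul_le_mul_right _ hj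
          _ = 2 ^ K := by rw [mul_comm]; exact h2
      have hn : ((n : X K)).val = n := by
        rw [ZMod.val_natCast]
        exact Nat.mod_eq_of_lt (by omega)
      refine ⟨(n : X K), ?_, hn⟩
      rw [mem_dy, hn]
      apply Nat.div_eq_of_lt_le
      · exact h1
      · exact h3
  rw [← Finset.card_image_of_injective (dy K k j) (ZMod.val_injective (2 ^ K)), himg,
    Nat.card_Ico, add_mul, one_mul, Nat.add_sub_cancel_left]

theorem mu_dy {k j : ℕ} (hk : k ≤ K) (hj : j < 2 ^ k) : mu (dy K k j) = ((2:ℝ) ^ k)⁻¹ := by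
  unfold mu
  rw [card_dy hk hj]
  push_cast
  have h := pow_split (K := K) (k := k) hk
  have h' : (2:ℝ) ^ (K - k) * 2 ^ k = 2 ^ K := by exact_mod_cast h
  rw [← h']
  field_simp

theorem mu_nonneg (A : Finset (X K)) : 0 ≤ mu A := by
  unfold mu
  positivity

theorem ave_nonneg {g : X K → ℝ} (hg : ∀ x, 0 ≤ g x) : 0 ≤ ave g := by
  unfold ave
  have := Finset.sum_nonneg (s := (Finset.univ : Finset (X K))) fun x _ => hg x
  positivity

theorem ave_mono {f g : X K → ℝ} (h : ∀ x, f x ≤ g x) : ave f ≤ ave g := by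
  unfold ave
  have := Finset.sum_le_sum (s := (Finset.univ : Finset (X K))) fun x _ => h x
  gcongr

theorem ave_add (f g : X K → ℝ) : ave (fun x => f x + g x) = ave f + ave g := by
  unfold ave
  rw [Finset.sum_add_distrib, add_div]

theorem ave_const_mul (a : ℝ) (f : X K → ℝ) : ave (fun x => a * f x) = a * ave f := by
  unfold ave
  rw [← Finset.mul_sum, mul_div_assoc]

theorem ave_sum {ι : Type*} (s : Finset ι) (f : ι → X K → ℝ) :
    ave (fun x => ∑ i ∈ s, f i x) = ∑ i ∈ s, ave (f i) := by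
  unfold ave
  rw [Finset.sum_comm, Finset.sum_div]

theorem ave_ind (p : X K → Prop) [DecidablePred p] :
    ave (fun x => if p x then 1 else 0) = mu (univ.filter p) := by
  unfold ave mu
  rw [Finset.sum_boole]

end Vale.Agent.P091.CH.H43
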