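import Vale.Agent.P091.CH.Props
import Vale.Agent.P091.CH.H98.Mass
import Vale.Agent.P091.CH.H43.Geo

/-!
# MASS lemma on the grid (helper43)
-/

open Finset MeasureTheory

namespace Vale.Agent.P091.CH.H43

open Vale.Agent.P091.CH

variable {K : ℕ}

/-! ## the normalised counting measure -/

/-- discrete sigma algebra on the grid -/
@[instance_reducible] def msX (K : ℕ) : MeasurableSpace (X K) := ⊤

attribute [local instance] msX

theorem msX_meas (A : Set (X K)) : MeasurableSet A := trivial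

theorem msX_sing : MeasurableSingletonClass (X K) := ⟨fun _ => trivial⟩

attribute [local instance] msX_sing

/-- normalised counting measure -/
noncomputable def nu (K : ℕ) : Measure (X K) := ENNReal.ofReal (((2:ℝ) ^ K)⁻¹) • Measure.count

instance instFinNu : IsFiniteMeasure (nu K) := by
  unfold nu
  constructor
  rw [Measure.smul_apply, Measure.count_apply_finite _ (Set.finite_univ), smul_eq_mul]
  exact ENNReal.mul_lt_top ENNReal.ofReal_lt_top (ENNReal.natCast_lt_top _)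

theorem nu_real (A : Finset (X K)) : (nu K).real (A : Set (X K)) = mu A := by
  unfold nu mu
  rw [Measure.real, Measure.smul_apply, Measure.count_apply_finset, smul_eq_mul,
    ENNReal.toReal_mul, ENNReal.toReal_ofReal (by positivity), ENNReal.toReal_natCast]
  rw [inv_mul_eq_div]

theorem nu_real_set (p : X K → Prop) [DecidablePred p] :
    (nu K).real {x | p x} = mu (univ.filter p) := by
  rw [← nu_real]
  congr 1
  ext x
  simp

theorem int_nu (g : X K → ℝ) : ∫ x, g x ∂(nu K) = ave g := by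
  unfold nu
  rw [integral_smul_measure, integral_count, ENNReal.toReal_ofReal (by positivity)]
  unfold ave
  rw [smul_eq_mul, inv_mul_eq_div]

theorem int_nu_set (p : X K → Prop) [DecidablePred p] (g : X K → ℝ) :
    ∫ x in {x | p x}, g x ∂(nu K) = ave (fun x => if p x then g x else 0) := by
  rw [← int_nu, ← integral_indicator (msX_meas {x | p x})]
  apply integral_congr_ae
  apply Filter.Eventually.of_forall
  intro x
  by_cases hx : p x
  · rw [Set.indicator_of_mem (show x ∈ {x | p x} from hx)]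
    exact (if_pos hx).symm
  · rw [Set.indicator_of_notMem (show x ∉ {x | p x} from hx)]
    exact (if_neg hx).symm

/-! ## order of tiles -/

/-- `u ≤ v`: the time interval grows, the frequency interval shrinks -/
def rel (u v : Tile) : Prop :=
  v.k ≤ u.k ∧ u.j / 2 ^ (u.k - v.k) = v.j ∧ v.l / 2 ^ (u.k - v.k) = u.l

theorem rel_refl (u : Tile) : rel u u := by
  refine ⟨le_rfl, ?_, ?_⟩ <;> simp

theorem rel_trans (u v z : Tile) (h1 : rel u v) (h2 : rel v z) : rel u z := by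
  obtain ⟨a1, b1, c1⟩ := h1
  obtain ⟨a2, b2, c2⟩ := h2
  have e : u.k - z.k = (u.k - v.k) + (v.k - z.k) := by omega
  refine ⟨a2.trans a1, ?_, ?_⟩
  · rw [e, pow_add, ← Nat.div_div_eq_div_mul, b1, b2]
  · rw [e, add_comm, pow_add, ← Int.ediv_ediv_of_nonneg (by positivity), c2, c1]

theorem rel_antisymm (u v : Tile) (h1 : rel u v) (h2 : rel v u) : u = v := by
  obtain ⟨a1, b1, c1⟩ := h1
  obtain ⟨a2, b2, c2⟩ := h2
  have e : u.k = v.k := le_antisymm a2 a1
  have e1 : u.k - v.k = 0 := by omega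
  rw [e1] at b1 c1
  simp only [pow_zero, Nat.div_one, Int.ediv_one] at b1 c1
  exact Tile.ext e b1 c1.symm

/-- dominated tiles and the order -/
theorem dom_rel {s u v : Tile} (h1 : Dom s u) (h2 : rel u v) : Dom s v := by
  obtain ⟨a1, b1, c1⟩ := h1
  obtain ⟨a2, b2, c2⟩ := h2
  have e : s.k - v.k = (s.k - u.k) + (u.k - v.k) := by omega
  refine ⟨a2.trans a1, ?_, ?_⟩
  · rw [e, pow_add, ← Nat.div_div_eq_div_mul, b1, b2]
  · rw [e, add_comm, pow_add, ← Int.ediv_ediv_of_nonneg (by positivity), c2]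
    exact c1

theorem dom_self (s : Tile) : Dom s s := by
  refine ⟨le_rfl, ?_, ?_⟩ <;> simp

/-- the finite set of the dominators of `s` -/
noncomputable def doms (s : Tile) : Finset Tile := by
  classical
  exact ((range (s.k + 1)).biUnion fun k =>
    (Finset.Icc ((s.l - 11) * 2 ^ (s.k - k)) ((s.l + 12) * 2 ^ (s.k - k))).image
      fun l => (⟨k, s.j / 2 ^ (s.k - k), l⟩ : Tile)).filter (fun u => Dom s u)

theorem mem_doms {s u : Tile} : u ∈ doms s ↔ Dom s u := by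
  classical
  unfold doms
  rw [Finset.mem_filter]
  refine ⟨fun h => h.2, fun h => ⟨?_, h⟩⟩
  obtain ⟨a, b, c⟩ := h
  rw [Finset.mem_biUnion]
  refine ⟨u.k, by rw [Finset.mem_range]; omega, ?_⟩
  rw [Finset.mem_image]
  refine ⟨u.l, ?_, ?_⟩
  · rw [Finset.mem_Icc]
    rw [abs_le] at c
    have hp : (0:ℤ) < 2 ^ (s.k - u.k) := by positivity
    constructor
    · have : s.l - 11 ≤ u.l / 2 ^ (s.k - u.k) := by linarith [c.1]
      exact (Int.le_ediv_iff_mul_le hp).1 this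
    · have : u.l / 2 ^ (s.k - u.k) < s.l + 12 := by linarith [c.2]
      exact ((Int.ediv_lt_iff_lt_mul hp).1 this).le
  · exact Tile.ext rfl b rfl

/-! ## the weight -/

theorem wt_nonneg (k : ℕ) (c x : X K) : 0 ≤ wt k c x := by
  unfold wt
  have := nrm_nonneg (x - c)
  positivity

theorem wt_le_sum (k : ℕ) (c x : X K) (n : ℕ) (hn : k ≤ n) :
    wt k c x ≤ ∑ i ∈ range (n + 1), (2:ℝ) ^ 10 * ((2:ℝ) ^ (10 * i))⁻¹ *
      (if nrm (x - c) ≤ 2 ^ i * ((2:ℝ) ^ k)⁻¹ then 1 else 0) := by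
  classical
  have hx := nrm_nonneg (x - c)
  have hk : (0:ℝ) < 2 ^ k := by positivity
  have hterm : ∀ i ∈ range (n + 1), 0 ≤ (2:ℝ) ^ 10 * ((2:ℝ) ^ (10 * i))⁻¹ *
      (if nrm (x - c) ≤ 2 ^ i * ((2:ℝ) ^ k)⁻¹ then 1 else 0) := by
    intro i _
    split_ifs <;> positivity
  have hex : ∃ i, nrm (x - c) ≤ 2 ^ i * ((2:ℝ) ^ k)⁻¹ := by
    refine ⟨k, ?_⟩
    rw [mul_inv_cancel₀ hk.ne']
    unfold nrm
    refine (AddCircle.norm_le_half_period (1:ℝ) one_ne_zero).trans ?_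
    norm_num
  set i := Nat.find hex with hi
  have hi1 : nrm (x - c) ≤ 2 ^ i * ((2:ℝ) ^ k)⁻¹ := Nat.find_spec hex
  have hik : i ≤ k := by
    apply Nat.find_min' hex
    rw [mul_inv_cancel₀ hk.ne']
    unfold nrm
    refine (AddCircle.norm_le_half_period (1:ℝ) one_ne_zero).trans ?_
    norm_num
  have hmem : i ∈ range (n + 1) := by rw [Finset.mem_range]; omega
  refine le_trans ?_ (Finset.single_le_sum hterm hmem)
  rw [if_pos hi1, mul_one]
  unfold wt
  rw [← inv_pow]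
  rcases Nat.eq_zero_or_pos i with h0 | hpos
  · rw [h0, mul_zero, pow_zero]
    have : (1 + 2 ^ k * nrm (x - c))⁻¹ ^ 10 ≤ 1 := by
      apply pow_le_one₀ (by positivity)
      rw [inv_le_one₀ (by positivity)]
      nlinarith [mul_nonneg hk.le hx]
    refine this.trans ?_
    norm_num
  · have hlt : ¬ nrm (x - c) ≤ 2 ^ (i - 1) * ((2:ℝ) ^ k)⁻¹ :=
      Nat.find_min hex (by omega)
    rw [not_le] at hlt
    have h1 : (2:ℝ) ^ (i - 1) < 2 ^ k * nrm (x - c) := by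
      have := mul_lt_mul_of_pos_left hlt hk
      calc (2:ℝ) ^ (i - 1) = 2 ^ k * (2 ^ (i - 1) * ((2:ℝ) ^ k)⁻¹) := by field_simp
        _ < _ := this
    have h2 : (1 + 2 ^ k * nrm (x - c))⁻¹ ≤ ((2:ℝ) ^ (i - 1))⁻¹ := by
      apply inv_anti₀ (by positivity)
      linarith
    have h3 : (2:ℝ) ^ i = 2 * 2 ^ (i - 1) := by
      rw [← pow_succ']
      congr 1
      omega
    calc (1 + 2 ^ k * nrm (x - c))⁻¹ ^ 10 ≤ (((2:ℝ) ^ (i - 1))⁻¹) ^ 10 := by
          apply pow_le_pow_left₀ (by positivity) h2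
      _ = 2 ^ 10 * (2⁻¹) ^ (10 * i) := by
          rw [pow_mul', inv_pow (2:ℝ) i, h3, mul_inv, mul_pow]
          rw [← mul_assoc, ← mul_pow]
          norm_num

/-! ## measure of the enlarged intervals -/

/-- enlarged interval -/
def Bi (K i : ℕ) (u : Tile) : Set (X K) := {x | nrm (x - u.c K) ≤ 2 ^ i * ((2:ℝ) ^ u.k)⁻¹}

/-- further enlargement -/
def Bi' (K i : ℕ) (u : Tile) : Set (X K) := {x | nrm (x - u.c K) ≤ 3 * 2 ^ i * ((2:ℝ) ^ u.k)⁻¹}

/-- the frequency interval -/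
def wi (u : Tile) : Set ℤ := {n | n / 2 ^ u.k = u.l}

theorem nu_Bi' (i : ℕ) (u : Tile) (hu : u.k ≤ K) :
    (nu K).real (Bi' K i u) ≤ 7 * 2 ^ i * u.len := by
  classical
  unfold Bi' Tile.len
  rw [nu_real_set]
  refine (mu_ball (u.c K) u.k hu (3 * 2 ^ i) (by positivity)).trans ?_
  have : (1:ℝ) ≤ 2 ^ i := one_le_pow₀ one_le_two
  apply mul_le_mul_of_nonneg_right _ (by positivity)
  linarith

/-- geometry -/
theorem geo (i : ℕ) (u v : Tile) (hv : v.k ≤ K) (hvj : v.j < 2 ^ v.k)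
    (hlen : v.len ≤ u.len) (hw : (wi u ∩ wi v).Nonempty)
    (hB : (Bi K i u ∩ Bi K i v).Nonempty) :
    ((v.I K : Finset (X K)) : Set (X K)) ⊆ Bi' K i u ∧ wi u ⊆ wi v := by
  have hk : u.k ≤ v.k := by
    unfold Tile.len at hlen
    have h := (inv_le_inv₀ (by positivity) (by positivity)).1 hlen
    exact (pow_le_pow_iff_right₀ one_lt_two).1 h
  constructor
  · obtain ⟨z, hz1, hz2⟩ := hB
    intro y hy
    have hy' : y ∈ dy K v.k v.j := hy
    have h1 : nrm (y - v.c K) ≤ ((2:ℝ) ^ v.k)⁻¹ :=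
      nrm_dy hv (mem_dy.1 hy') (pt_zero_div hv hvj)
    have h2 : ((2:ℝ) ^ v.k)⁻¹ ≤ ((2:ℝ) ^ u.k)⁻¹ := hlen
    have h3 : nrm (z - u.c K) ≤ 2 ^ i * ((2:ℝ) ^ u.k)⁻¹ := hz1
    have h4 : nrm (z - v.c K) ≤ 2 ^ i * ((2:ℝ) ^ v.k)⁻¹ := hz2
    have h5 : nrm (y - u.c K) ≤ nrm (y - v.c K) + nrm (v.c K - z) + nrm (z - u.c K) :=
      (nrm_sub_le y z (u.c K)).trans (by
        have := nrm_sub_le y (v.c K) z
        linarith)
    rw [nrm_sub_comm (v.c K) z] at h5
    have h6 : (1:ℝ) ≤ 2 ^ i := one_le_pow₀ one_le_two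
    have h7 : (0:ℝ) < ((2:ℝ) ^ u.k)⁻¹ := by positivity
    show nrm (y - u.c K) ≤ 3 * 2 ^ i * ((2:ℝ) ^ u.k)⁻¹
    have h8 : 2 ^ i * ((2:ℝ) ^ v.k)⁻¹ ≤ 2 ^ i * ((2:ℝ) ^ u.k)⁻¹ :=
      mul_le_mul_of_nonneg_left h2 (by positivity)
    nlinarith
  · obtain ⟨n, hn1, hn2⟩ := hw
    have hn1' : n / 2 ^ u.k = u.l := hn1
    have hn2' : n / 2 ^ v.k = v.l := hn2
    intro m hm
    have hm' : m / 2 ^ u.k = u.l := hm
    show m / 2 ^ v.k = v.l
    have e : v.k = u.k + (v.k - u.k) := by omega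
    rw [e, pow_add, ← Int.ediv_ediv_of_nonneg (by positivity)] at hn2' ⊢
    rw [hm', ← hn1', hn2']

theorem comp (u v : Tile) (hu : u.k ≤ K) (hv : v.k ≤ K)
    (hw : (wi u ∩ wi v).Nonempty)
    (hI : (((u.I K : Finset (X K)) : Set (X K)) ∩ ((v.I K : Finset (X K)) : Set (X K))).Nonempty) :
    rel u v ∨ rel v u := by
  have key : ∀ u v : Tile, u.k ≤ K → v.k ≤ u.k → (∃ n : ℤ, n / 2 ^ u.k = u.l ∧ n / 2 ^ v.k = v.l) →
      (∃ x : X K, x.val / 2 ^ (K - u.k) = u.j ∧ x.val / 2 ^ (K - v.k) = v.j) → rel u v := by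
    intro u v hu hvu ⟨n, hn1, hn2⟩ ⟨x, hx1, hx2⟩
    refine ⟨hvu, ?_, ?_⟩
    · rw [← hx1, ← hx2, Nat.div_div_eq_div_mul, ← pow_add]
      congr 2
      omega
    · rw [← hn1, ← hn2, Int.ediv_ediv_of_nonneg (by positivity), ← pow_add]
      congr 2
      omega
  obtain ⟨n, hn1, hn2⟩ := hw
  obtain ⟨x, hx1, hx2⟩ := hI
  have hx1' : x ∈ dy K u.k u.j := hx1
  have hx2' : x ∈ dy K v.k v.j := hx2
  rw [mem_dy] at hx1' hx2'
  rcases le_total v.k u.k with h | h
  · exact Or.inl (key u v hu h ⟨n, hn1, hn2⟩ ⟨x, hx1', hx2'⟩)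
  · exact Or.inr (key v u hv h ⟨n, hn2, hn1⟩ ⟨x, hx2', hx1'⟩)

/-! ## the mass lemma -/

theorem dom_props {s u : Tile} (hs : s.Ok K) (h : Dom s u) : u.k ≤ K ∧ u.j < 2 ^ u.k := by
  obtain ⟨a, b, _⟩ := h
  obtain ⟨h1, h2, _⟩ := hs
  refine ⟨by omega, ?_⟩
  rw [← b]
  apply Nat.div_lt_of_lt_mul
  rw [← pow_add]
  have : u.k + (s.k - u.k) = s.k := by omega
  rw [add_comm, this] 
  exact h2

theorem geom_bound (n : ℕ) : ∑ i ∈ range n, ((2:ℝ) ^ (4 * i))⁻¹ ≤ 2 := by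
  have h : ∀ n : ℕ, ∑ i ∈ range n, ((2:ℝ) ^ (4 * i))⁻¹ ≤ 2 - 16 / 15 * ((2:ℝ) ^ (4 * n))⁻¹ := by
    intro n
    induction n with
    | zero => norm_num
    | succ n ih =>
      rw [Finset.sum_range_succ]
      have e : (2:ℝ) ^ (4 * (n + 1)) = 16 * 2 ^ (4 * n) := by
        rw [mul_add, pow_add]
        norm_num
        ring
      rw [e, mul_inv]
      have : (0:ℝ) < ((2:ℝ) ^ (4 * n))⁻¹ := by positivity
      linarith
  have := h n
  have h2 : (0:ℝ) < ((2:ℝ) ^ (4 * n))⁻¹ := by positivity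
  linarith

theorem geom_bound5 (n : ℕ) : ∑ i ∈ range n, ((2:ℝ) ^ (5 * i))⁻¹ ≤ 2 := by
  refine le_trans ?_ (geom_bound n)
  apply Finset.sum_le_sum
  intro i _
  apply inv_anti₀ (by positivity)
  exact pow_le_pow_right₀ one_le_two (by omega)

theorem p_MS : P_MS := by
  classical
  refine ⟨4 * (7 * 2 ^ 11 * 2), ?_⟩
  intro K E N P μ hP hμ hms
  -- the finite set of all dominators
  set Tl : Finset Tile := P.biUnion doms with hTl
  have hTlP : ∀ u ∈ Tl, ∃ s ∈ P, Dom s u := by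
    intro u hu
    obtain ⟨s, hs, h⟩ := Finset.mem_biUnion.1 hu
    exact ⟨s, hs, mem_doms.1 h⟩
  have hTlk : ∀ u ∈ Tl, u.k ≤ K ∧ u.j < 2 ^ u.k := by
    intro u hu
    obtain ⟨s, hs, h⟩ := hTlP u hu
    exact dom_props (hP.2 s hs) h
  have key := Vale.Agent.P091.CH.H98.mass_trees (nu K) N rel rel_refl rel_trans rel_antisymm
    Tile.len (fun u => ((u.I K : Finset (X K)) : Set (X K))) (Bi K) (Bi' K) wi
    (fun u x => wt u.k (u.c K) x) (K + 1) (fun i => (2:ℝ) ^ 10 * ((2:ℝ) ^ (10 * i))⁻¹)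
    (fun i => 7 * 2 ^ i) (fun i => ((2:ℝ) ^ 11)⁻¹ * 2 ^ (5 * i))
    (fun i => by positivity) (fun i => by positivity) (fun i => by positivity)
    (by
      have : ∀ i ∈ range (K + 1), (2:ℝ) ^ 10 * ((2:ℝ) ^ (10 * i))⁻¹ *
          (((2:ℝ) ^ 11)⁻¹ * 2 ^ (5 * i)) = 2⁻¹ * ((2:ℝ) ^ (5 * i))⁻¹ := by
        intro i _
        have e : (2:ℝ) ^ (10 * i) = 2 ^ (5 * i) * 2 ^ (5 * i) := by
          rw [← pow_add]; congr 1; ring
        rw [e]
        have : (2:ℝ) ^ (5 * i) ≠ 0 := by positivity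
        field_simp
      rw [Finset.sum_congr rfl this, ← Finset.mul_sum]
      have := geom_bound5 (K + 1)
      linarith)
    Tl (E : Set (X K))
    (fun u _ => by unfold Tile.len; positivity)
    (fun u hu => by
      rw [nu_real]
      unfold Tile.I
      rw [mu_dy (hTlk u hu).1 (hTlk u hu).2]
      exact le_rfl)
    (fun u _ => msX_meas _)
    (fun i _ u hu => nu_Bi' i u (hTlk u hu).1)
    (fun i _ u hu v hv hlen hw hB => geo i u v (hTlk v hv).1 (hTlk v hv).2 hlen hw hB)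
    (fun u hu v hv hw hI => comp u v (hTlk u hu).1 (hTlk v hv).1 hw hI)
    (fun u _ => msX_meas _) (fun i _ u _ => msX_meas _)
    (fun u hu x => by
      refine (wt_le_sum u.k (u.c K) x K (hTlk u hu).1).trans (le_of_eq ?_)
      apply Finset.sum_congr rfl
      intro i _
      by_cases h : nrm (x - u.c K) ≤ 2 ^ i * ((2:ℝ) ^ u.k)⁻¹
      · rw [if_pos h, Set.indicator_of_mem (show x ∈ Bi K i u from h)]
      · rw [if_neg h, Set.indicator_of_notMem (show x ∉ Bi K i u from h)])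
    (fun u _ x => wt_nonneg _ _ _) Tl (μ / 4) (by positivity)
  obtain ⟨U, hUT, -, -, hsum, hcov⟩ := key
  have hdens : ∀ u : Tile, ∫ x in {x | x ∈ (E : Set (X K)) ∧ N x ∈ wi u}, wt u.k (u.c K) x ∂(nu K)
      = dens E N u := by
    intro u
    unfold dens
    rw [← int_nu_set (fun x => x ∈ E ∧ N x / 2 ^ u.k = u.l)]
    rfl
  -- light part
  set L : Finset Tile := P.filter (fun s => ∀ u, Dom s u → dens E N u ≤ μ / 4 * u.len) with hL
  have hheavy : ∀ s ∈ P, s ∉ L → ∃ v ∈ U, Dom s v := by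
    intro s hs hsL
    have : ∃ u, Dom s u ∧ μ / 4 * u.len < dens E N u := by
      by_contra hcon
      push Not at hcon
      exact hsL (Finset.mem_filter.2 ⟨hs, hcon⟩)
    obtain ⟨u, hu, hlt⟩ := this
    have huT : u ∈ Tl := Finset.mem_biUnion.2 ⟨s, hs, mem_doms.2 hu⟩
    obtain ⟨v, hv, huv⟩ := hcov u huT u huT (rel_refl u) (by rw [hdens]; exact hlt)
    exact ⟨v, hv, dom_rel hu huv⟩
  -- enumerate U
  have hcov2 : ∀ s, ∃ i, (s ∈ P → s ∉ L → i < U.card ∧ ∀ (h : i < U.card),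
      Dom s (U.equivFin.symm ⟨i, h⟩ : U)) := by
    intro s
    by_cases hs : s ∈ P ∧ s ∉ L
    · obtain ⟨v, hv, hd⟩ := hheavy s hs.1 hs.2
      refine ⟨(U.equivFin ⟨v, hv⟩ : Fin U.card), fun _ _ => ⟨Fin.isLt _, fun h => ?_⟩⟩
      simpa using hd
    · refine ⟨0, fun h1 h2 => absurd ⟨h1, h2⟩ hs⟩
  choose idx hidx using hcov2
  set tp : ℕ → Tile := fun i => if h : i < U.card then ((U.equivFin.symm ⟨i, h⟩ : U) : Tile)
    else ⟨0, 0, 0⟩ with htp
  have hidx2 : ∀ s ∈ P, s ∉ L → idx s < U.card ∧ Dom s (tp (idx s)) := by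
    intro s hs hsL
    obtain ⟨h1, h2⟩ := hidx s hs hsL
    refine ⟨h1, ?_⟩
    rw [htp]
    simp only
    rw [dif_pos h1]
    exact h2 h1
  refine ⟨L, ⟨range U.card, fun i => (P \ L).filter (fun s => idx s = i), fun i => (tp i).k,
    fun i => (tp i).j, fun i => (tp i).l * 2 ^ (tp i).k⟩, ?_, ?_, ?_⟩
  · refine ⟨Finset.filter_subset _ _, ?_, ?_, ?_, ?_⟩
    · intro i _
      exact Finset.filter_subset _ _
    · intro i _ s hs
      have h1 := Finset.mem_filter.1 hs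
      have h2 := Finset.mem_sdiff.1 h1.1
      obtain ⟨-, hd⟩ := hidx2 s h2.1 h2.2
      rw [h1.2] at hd
      obtain ⟨a, b, c⟩ := hd
      refine ⟨a, b, ?_⟩
      have e : (tp i).l * 2 ^ (tp i).k / 2 ^ s.k = (tp i).l / 2 ^ (s.k - (tp i).k) := by
        have e2 : (2:ℤ) ^ s.k = 2 ^ (tp i).k * 2 ^ (s.k - (tp i).k) := by
          rw [← pow_add]; congr 1; omega
        rw [e2, ← Int.ediv_ediv_of_nonneg (by positivity), Int.mul_ediv_cancel _ (by positivity)]
      show |s.l - (tp i).l * 2 ^ (tp i).k / 2 ^ s.k| ≤ 11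
      rw [e, abs_sub_comm]
      exact c
    · intro s hs
      by_cases hsL : s ∈ L
      · exact Or.inl hsL
      · refine Or.inr ⟨idx s, Finset.mem_range.2 (hidx2 s hs hsL).1, ?_⟩
        exact Finset.mem_filter.2 ⟨Finset.mem_sdiff.2 ⟨hs, hsL⟩, rfl⟩
    · intro i _ i' _ hne
      rw [Finset.disjoint_left]
      intro s hs hs'
      exact hne ((Finset.mem_filter.1 hs).2.symm.trans (Finset.mem_filter.1 hs').2)
  · intro s hs u hu
    exact (Finset.mem_filter.1 hs).2 u hu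
  · have hmu : 0 ≤ mu E := mu_nonneg E
    have htot : (∑ i ∈ range U.card, ((2:ℝ) ^ (tp i).k)⁻¹) = ∑ u ∈ U, u.len := by
      rw [← Finset.sum_coe_sort U, Finset.sum_range]
      rw [← Equiv.sum_comp U.equivFin.symm]
      apply Finset.sum_congr rfl
      intro i _
      rw [htp]
      simp only
      rw [dif_pos i.isLt]
      rfl
    show (∑ i ∈ range U.card, ((2:ℝ) ^ (tp i).k)⁻¹) * μ ≤ _
    rw [htot]
    rw [nu_real] at hsum
    have hbc : ∑ k ∈ range (K + 1), 7 * (2:ℝ) ^ k / (((2:ℝ) ^ 11)⁻¹ * 2 ^ (5 * k)) ≤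
        7 * 2 ^ 11 * 2 := by
      have : ∀ k ∈ range (K + 1), 7 * (2:ℝ) ^ k / (((2:ℝ) ^ 11)⁻¹ * 2 ^ (5 * k)) =
          7 * 2 ^ 11 * ((2:ℝ) ^ (4 * k))⁻¹ := by
        intro k _
        have e : (2:ℝ) ^ (5 * k) = 2 ^ k * 2 ^ (4 * k) := by rw [← pow_add]; congr 1; ring
        rw [e]
        field_simp
      rw [Finset.sum_congr rfl this, ← Finset.mul_sum]
      exact mul_le_mul_of_nonneg_left (geom_bound _) (by positivity)
    calc (∑ u ∈ U, u.len) * μ ≤
        ((∑ k ∈ range (K + 1), 7 * (2:ℝ) ^ k / (((2:ℝ) ^ 11)⁻¹ * 2 ^ (5 * k))) / (μ / 4) * mu E)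
          * μ := mul_le_mul_of_nonneg_right hsum hμ.le
      _ = 4 * (∑ k ∈ range (K + 1), 7 * (2:ℝ) ^ k / (((2:ℝ) ^ 11)⁻¹ * 2 ^ (5 * k))) * mu E := by
          generalize (∑ k ∈ range (K + 1), 7 * (2:ℝ) ^ k / (((2:ℝ) ^ 11)⁻¹ * 2 ^ (5 * k))) = S
          field_simp
      _ ≤ 4 * (7 * 2 ^ 11 * 2) * mu E := by
          apply mul_le_mul_of_nonneg_right _ hmu
          linarith

/-! ## the mass is always bounded -/

theorem p_MS0_of (h1 : P_GEO1) : P_MS0 := by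
  classical
  obtain ⟨C, hC⟩ := h1
  refine ⟨C, ?_⟩
  intro K E N P hP s hs u hu
  have hk := dom_props (hP.2 s hs) hu
  refine le_trans ?_ (hC K u.k (u.c K) hk.1)
  unfold dens
  apply ave_mono
  intro x
  have h0 := nrm_nonneg (x - u.c K)
  have hb : (1 + 2 ^ u.k * nrm (x - u.c K))⁻¹ ≤ 1 := by
    rw [inv_le_one₀ (by positivity)]
    have : 0 ≤ 2 ^ u.k * nrm (x - u.c K) := by positivity
    linarith
  split_ifs with h
  · unfold wt
    exact pow_le_pow_of_le_one (by positivity) hb (by norm_num)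
  · positivity

end Vale.Agent.P091.CH.H43
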