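import Vale.Agent.P091.CH.Light
import Vale.Agent.P091.CH.H43.Ms

/-!
# Maximal heavy tiles (helper43)
-/

open Finset MeasureTheory

namespace Vale.Agent.P091.CH.H43

open Vale.Agent.P091.CH

attribute [local instance] msX
attribute [local instance] msX_sing

variable {K : ℕ}

/-- maximal elements of a finite set of tiles -/
theorem exists_max_cover (S : Finset Tile) : ∃ U ⊆ S, (∀ u ∈ U, ∀ v ∈ S, rel u v → u = v) ∧
    ∀ u ∈ S, ∃ v ∈ U, rel u v := by
  classical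
  let _ : PartialOrder Tile :=
    { le := rel, le_refl := rel_refl, le_trans := rel_trans,
      le_antisymm := rel_antisymm }
  refine ⟨S.filter (fun u => ∀ v ∈ S, rel u v → v = u), Finset.filter_subset _ _, ?_, ?_⟩
  · intro u hu v hv huv
    exact ((Finset.mem_filter.1 hu).2 v hv huv).symm
  · intro u hu
    obtain ⟨v, huv, hv⟩ := S.exists_le_maximal hu
    refine ⟨v, ?_, huv⟩
    rw [Finset.mem_filter]
    refine ⟨hv.1, fun z hz hvz => ?_⟩
    exact (rel_antisymm v z hvz (hv.2 hz hvz)).symm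

/-- the density as an integral -/
theorem dens_eq_int (E : Finset (X K)) (N : X K → ℤ) (u : Tile) :
    ∫ x in {x | x ∈ (E : Set (X K)) ∧ N x ∈ wi u}, wt u.k (u.c K) x ∂(nu K) = dens E N u := by
  unfold dens
  rw [← int_nu_set (fun x => x ∈ E ∧ N x / 2 ^ u.k = u.l)]
  rfl

/-- counting of an antichain of heavy tiles -/
theorem antichain_count (E : Finset (X K)) (N : X K → ℤ) (U : Finset Tile) (μ : ℝ) (hμ : 0 < μ)
    (hU : ∀ u ∈ U, u.k ≤ K ∧ u.j < 2 ^ u.k) (hanti : ∀ u ∈ U, ∀ v ∈ U, rel u v → u = v)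
    (hheavy : ∀ u ∈ U, μ * u.len < dens E N u) :
    (∑ u ∈ U, u.len) * μ ≤ (7 * 2 ^ 11 * 2) * mu E := by
  classical
  have key := Vale.Agent.P091.CH.H98.count_all (nu K) N
    Tile.len (fun u => ((u.I K : Finset (X K)) : Set (X K))) (Bi K) (Bi' K) wi
    (fun u x => wt u.k (u.c K) x) (K + 1) (fun i => (2:ℝ) ^ 10 * ((2:ℝ) ^ (10 * i))⁻¹)
    (fun i => 7 * 2 ^ i) (fun i => ((2:ℝ) ^ 11)⁻¹ * 2 ^ (5 * i))
    (fun i => by positivity) (fun i => by positivity) (fun i => by positivity)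
    (by
      have : ∀ i ∈ range (K + 1), (2:ℝ) ^ 10 * ((2:ℝ) ^ (10 * i))⁻¹ *
          (((2:ℝ) ^ 11)⁻¹ * 2 ^ (5 * i)) = 2⁻¹ * ((2:ℝ) ^ (5 * i))⁻¹ := by
        intro i _
        have e : (2:ℝ) ^ (10 * i) = 2 ^ (5 * i) * 2 ^ (5 * i) := by
          rw [← pow_add]; congr 1; ring
        rw [e]
        have : (2:ℝ) ^ (5 * i) ≠ 0 := by positivity
        field_simp
      rw [Finset.sum_congr rfl this, ← Finset.mul_sum]
      have := geom_bound5 (K + 1)
      linarith)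
    U (E : Set (X K)) μ hμ
    (fun u _ => by unfold Tile.len; positivity)
    (fun u hu => by
      rw [nu_real]
      unfold Tile.I
      rw [mu_dy (hU u hu).1 (hU u hu).2]
      exact le_rfl)
    (fun u _ => msX_meas _)
    (fun i _ u hu => nu_Bi' i u (hU u hu).1)
    (fun i _ u hu v hv hlen hw hB => geo i u v (hU v hv).1 (hU v hv).2 hlen hw hB)
    (fun u hu v hv huv hw => by
      rw [Set.disjoint_iff_inter_eq_empty, ← Set.not_nonempty_iff_eq_empty]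
      intro hne
      rcases comp u v (hU u hu).1 (hU v hv).1 hw hne with h | h
      · exact huv (hanti u hu v hv h)
      · exact huv (hanti v hv u hu h).symm)
    (fun u _ => msX_meas _) (fun i _ u _ => msX_meas _)
    (fun u hu x => by
      refine (wt_le_sum u.k (u.c K) x K (hU u hu).1).trans (le_of_eq ?_)
      apply Finset.sum_congr rfl
      intro i _
      by_cases h : nrm (x - u.c K) ≤ 2 ^ i * ((2:ℝ) ^ u.k)⁻¹
      · rw [if_pos h, Set.indicator_of_mem (show x ∈ Bi K i u from h)]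
      · rw [if_neg h, Set.indicator_of_notMem (show x ∉ Bi K i u from h)])
    (fun u _ x => wt_nonneg _ _ _)
    (fun u hu => by
      have := hheavy u hu
      rw [← dens_eq_int] at this
      exact this)
  have hmu : 0 ≤ mu E := mu_nonneg E
  rw [nu_real] at key
  have hbc : ∑ k ∈ range (K + 1), 7 * (2:ℝ) ^ k / (((2:ℝ) ^ 11)⁻¹ * 2 ^ (5 * k)) ≤
      7 * 2 ^ 11 * 2 := by
    have : ∀ k ∈ range (K + 1), 7 * (2:ℝ) ^ k / (((2:ℝ) ^ 11)⁻¹ * 2 ^ (5 * k)) =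
        7 * 2 ^ 11 * ((2:ℝ) ^ (4 * k))⁻¹ := by
      intro k _
      have e : (2:ℝ) ^ (5 * k) = 2 ^ k * 2 ^ (4 * k) := by rw [← pow_add]; congr 1; ring
      rw [e]
      field_simp
    rw [Finset.sum_congr rfl this, ← Finset.mul_sum]
    exact mul_le_mul_of_nonneg_left (geom_bound _) (by positivity)
  calc (∑ u ∈ U, u.len) * μ ≤
      ((∑ k ∈ range (K + 1), 7 * (2:ℝ) ^ k / (((2:ℝ) ^ 11)⁻¹ * 2 ^ (5 * k))) / μ * mu E)
        * μ := mul_le_mul_of_nonneg_right key hμ.le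
    _ = (∑ k ∈ range (K + 1), 7 * (2:ℝ) ^ k / (((2:ℝ) ^ 11)⁻¹ * 2 ^ (5 * k))) * mu E := by
        generalize (∑ k ∈ range (K + 1), 7 * (2:ℝ) ^ k / (((2:ℝ) ^ 11)⁻¹ * 2 ^ (5 * k))) = S
        field_simp
    _ ≤ (7 * 2 ^ 11 * 2) * mu E := mul_le_mul_of_nonneg_right hbc hmu

/-- strong form: `U` = the maximal heavy tiles among all dominators of `P` -/
theorem msu_strong (E : Finset (X K)) (N : X K → ℤ) (P : Finset Tile) (μ : ℝ)
    (hP : ∀ s ∈ P, s.Ok K) (hμ : 0 < μ) :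
    ∃ U : Finset Tile, (∀ u ∈ U, u.k + 6 ≤ K ∧ u.j < 2 ^ u.k ∧ μ * u.len < dens E N u) ∧
      (∀ u ∈ U, ∃ s ∈ P, Dom s u) ∧
      (∀ u ∈ U, ∀ v ∈ U, rel u v → u = v) ∧
      (∀ s ∈ P, ∀ u, Dom s u → μ * u.len < dens E N u → ∃ v ∈ U, rel u v ∧ Dom s v) ∧
      (∑ u ∈ U, u.len) * μ ≤ (7 * 2 ^ 11 * 2) * mu E := by
  classical
  set S : Finset Tile := (P.biUnion doms).filter (fun u => μ * u.len < dens E N u) with hS
  have hSm : ∀ u ∈ S, (∃ s ∈ P, Dom s u) ∧ μ * u.len < dens E N u := by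
    intro u hu
    have h := Finset.mem_filter.1 hu
    obtain ⟨s, hs, h2⟩ := Finset.mem_biUnion.1 h.1
    exact ⟨⟨s, hs, mem_doms.1 h2⟩, h.2⟩
  obtain ⟨U, hUS, hmax, hcov⟩ := exists_max_cover S
  have hUk : ∀ u ∈ U, u.k + 6 ≤ K ∧ u.j < 2 ^ u.k := by
    intro u hu
    obtain ⟨⟨s, hs, hd⟩, _⟩ := hSm u (hUS hu)
    have h1 := dom_props (hP s hs) hd
    have h2 := (hP s hs).1
    have h3 := hd.1
    exact ⟨by omega, h1.2⟩
  refine ⟨U, ?_, ?_, ?_, ?_, ?_⟩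
  · intro u hu
    exact ⟨(hUk u hu).1, (hUk u hu).2, (hSm u (hUS hu)).2⟩
  · intro u hu
    exact (hSm u (hUS hu)).1
  · intro u hu v hv huv
    exact hmax u hu v (hUS hv) huv
  · intro s hs u hsu hheavy
    have huS : u ∈ S := by
      rw [hS, Finset.mem_filter]
      exact ⟨Finset.mem_biUnion.2 ⟨s, hs, mem_doms.2 hsu⟩, hheavy⟩
    obtain ⟨v, hv, huv⟩ := hcov u huS
    exact ⟨v, hv, huv, dom_rel hsu huv⟩
  · exact antichain_count E N U μ hμ (fun u hu => ⟨by have := (hUk u hu).1; omega, (hUk u hu).2⟩)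
      (fun u hu v hv huv => hmax u hu v (hUS hv) huv) (fun u hu => (hSm u (hUS hu)).2)

/-- **P_MSU** -/
theorem p_MSU : P_MSU := by
  refine ⟨7 * 2 ^ 11 * 2, ?_⟩
  intro K E N P μ hP hμ
  obtain ⟨U, h1, _, _, h4, h5⟩ := msu_strong E N P μ hP hμ
  refine ⟨U, h1, ?_, h5⟩
  intro s hs
  by_cases h : ∃ u, Dom s u ∧ μ * u.len < dens E N u
  · obtain ⟨u, hu, hlt⟩ := h
    obtain ⟨v, hv, _, hd⟩ := h4 s hs u hu hlt
    exact Or.inr ⟨v, hv, hd⟩
  · left
    push Not at h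
    exact h

end Vale.Agent.P091.CH.H43
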